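import Vale.Agent.P134.Separated

namespace Vale.Agent.Results.P134.SeparatedSolutions

open Vale.Agent.P134

/-- In every dimension `n = m + 1`, a solution of `Δu = u³ - u` of the form `a(x') + b(x_n)`, or of
the form `a(x') b(x_n)` with `a > 0`, where `a` does not depend on `x_n` and `b` is strictly
increasing, has `a` constant, so `u` is a function of `x_n` alone. -/
theorem result {m : ℕ} (a : (Fin (m + 1) → ℝ) → ℝ) (b : ℝ → ℝ)
    (ha : ∀ x t, a (Function.update x (Fin.last m) t) = a x) (hb : StrictMono b) :
    ((∀ x, coordLaplacian (fun x => a x + b (x (Fin.last m))) x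
        = (a x + b (x (Fin.last m))) ^ 3 - (a x + b (x (Fin.last m)))) →
      ∀ x y, a x = a y) ∧
    ((∀ x, 0 < a x) →
      (∀ x, coordLaplacian (fun x => a x * b (x (Fin.last m))) x
        = (a x * b (x (Fin.last m))) ^ 3 - (a x * b (x (Fin.last m)))) →
      ∀ x y, a x = a y) :=
  ⟨fun hsol x y => sum_separated a b ha hb hsol x y,
   fun hpos hsol x y => product_separated a b ha hb hpos hsol x y⟩

end Vale.Agent.Results.P134.SeparatedSolutions
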