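import Vale.Agent.P134.Translate

namespace Vale.Agent.Results.P134.TranslatedLevelSets

open Vale.Agent.P134

/-- If `u(x, t) = U(t + f x)` solves the Allen-Cahn equation on `ℝ^m × ℝ` with `|u| ≤ 1` and
`∂_t u > 0`, with `U` of class `C²` and `f` of class `C³`, then `f` is affine, so `u` is
one-dimensional: a function of the single linear form `t + b · x`. -/
theorem result {m : ℕ} {U : ℝ → ℝ} {f : (Fin m → ℝ) → ℝ} (hU : ContDiff ℝ 2 U)
    (hf : ContDiff ℝ 3 f) (hmono : ∀ s, 0 < deriv U s) (hbd : ∀ s, |U s| ≤ 1)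
    (hAC : IsAllenCahn (fun x t => U (t + f x))) :
    ∃ (b : Fin m → ℝ) (f₀ : ℝ), ∀ x t, U (t + f x) = U (t + ∑ i, b i * x i + f₀) := by
  obtain ⟨b, f₀, h⟩ := translate_affine hU hf hmono hbd hAC
  refine ⟨b, f₀, fun x t => ?_⟩
  rw [h x]
  congr 1
  ring

end Vale.Agent.Results.P134.TranslatedLevelSets
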